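import Vale.Agent.P088.R2.H558.Spec

/-!
# Balls, and the interior estimate for `Lv s w = 0` at the points of `Bs n (1/2)`
-/

open MeasureTheory Set
open scoped ContDiff Matrix Topology Pointwise

noncomputable section

namespace Vale.Agent.P088.HY

open Vale.Agent.P088.LR

variable {n : ℕ}

theorem continuous_sq : Continuous (sq : V n → ℝ) := by
  unfold sq; fun_prop

theorem isOpen_Bn : IsOpen (Bn n) := isOpen_lt continuous_sq continuous_const

theorem isOpen_Bs (ρ : ℝ) : IsOpen (Bs n ρ) := isOpen_lt continuous_sq continuous_const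

theorem isOpen_Un : IsOpen (Un n) := isOpen_Bn.prod isOpen_Bn

/-- The closed Euclidean ball of radius `3/4`. -/
def Bc (n : ℕ) : Set (V n) := {x | sq x ≤ 9 / 16}

theorem isClosed_Bc : IsClosed (Bc n) := isClosed_le continuous_sq continuous_const

theorem isCompact_Bc : IsCompact (Bc n) := by
  refine (isCompact_closedBall (0 : V n) 1).of_isClosed_subset isClosed_Bc fun x hx => ?_
  rw [mem_closedBall_zero_iff, pi_norm_le_iff_of_nonneg zero_le_one]
  intro i
  have h1 : x i ^ 2 ≤ sq x := Finset.single_le_sum (f := fun j => x j ^ 2)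
    (fun j _ => sq_nonneg _) (Finset.mem_univ i)
  have h2 : x i ^ 2 ≤ 9 / 16 := h1.trans hx
  rw [Real.norm_eq_abs, ← sq_le_one_iff_abs_le_one]
  linarith

theorem measurableSet_Bc : MeasurableSet (Bc n) := isClosed_Bc.measurableSet

theorem Bc_subset : Bc n ⊆ Bn n := fun x (hx : sq x ≤ 9 / 16) =>
  show sq x < 1 by linarith

theorem Bs_subset : Bs n (1 / 2) ⊆ Bc n := fun x (hx : sq x < (1 / 2) ^ 2) =>
  show sq x ≤ 9 / 16 by linarith

/-- The scale. -/
def r0 (n : ℕ) : ℝ := 1 / (8 * (n + 1))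

theorem r0_pos : 0 < r0 n := by unfold r0; positivity

theorem r0_le : r0 n ≤ 1 := by
  unfold r0
  rw [div_le_one (by positivity)]
  have : (0 : ℝ) ≤ n := by positivity
  linarith

theorem ball_sub {p : V n} (hp : p ∈ Bs n (1 / 2)) : Metric.ball p (2 * r0 n) ⊆ Bc n := by
  intro y hy
  have h0 : (0 : ℝ) ≤ n := by positivity
  have h1 : ∀ j, y j ^ 2 ≤ 2 * p j ^ 2 + 2 * (2 * r0 n) ^ 2 := by
    intro j
    have h2 : |y j - p j| ≤ 2 * r0 n := by
      have h3 := dist_le_pi_dist y p j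
      rw [Real.dist_eq] at h3
      exact h3.trans (Metric.mem_ball.1 hy).le
    have h4 : (y j - p j) ^ 2 ≤ (2 * r0 n) ^ 2 := sq_le_sq' (by linarith [abs_le.1 h2 |>.1])
      (abs_le.1 h2).2
    nlinarith [sq_nonneg (y j - 2 * p j)]
  have h5 : sq y ≤ 2 * sq p + n * (2 * (2 * r0 n) ^ 2) := by
    unfold sq
    calc ∑ j, y j ^ 2 ≤ ∑ j, (2 * p j ^ 2 + 2 * (2 * r0 n) ^ 2) :=
          Finset.sum_le_sum fun j _ => h1 j
      _ = 2 * ∑ j, p j ^ 2 + n * (2 * (2 * r0 n) ^ 2) := by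
          rw [Finset.sum_add_distrib, ← Finset.mul_sum, Finset.sum_const, Finset.card_univ,
            Fintype.card_fin, nsmul_eq_mul]
  have h6 : (n : ℝ) * (2 * (2 * r0 n) ^ 2) ≤ 1 / 32 := by
    unfold r0
    rw [show (n : ℝ) * (2 * (2 * (1 / (8 * (n + 1)))) ^ 2) = n / (8 * (n + 1) ^ 2) by
      field_simp; ring]
    rw [div_le_iff₀ (by positivity)]
    nlinarith [sq_nonneg ((n : ℝ) - 1)]
  have h7 : sq p < (1 / 2) ^ 2 := hp
  show sq y ≤ 9 / 16
  linarith

theorem pd_comp_aff {f : V n → ℝ} {p x : V n} {r : ℝ} (hf : DifferentiableAt ℝ f (p + r • x))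
    (i : Fin n) : pd i (fun x => f (p + r • x)) x = r * pd i f (p + r • x) := by
  unfold pd
  have h1 : HasFDerivAt (fun x : V n => p + r • x) (r • ContinuousLinearMap.id ℝ (V n)) x :=
    ((hasFDerivAt_id x).const_smul r).const_add p
  have h2 := hf.hasFDerivAt.comp x h1
  have h3 : HasFDerivAt (fun x => f (p + r • x)) ((fderiv ℝ f (p + r • x)).comp
      (r • ContinuousLinearMap.id ℝ (V n))) x := h2
  rw [h3.fderiv]
  simp

theorem contDiffOn_pd {f : V n → ℝ} {O : Set (V n)} (hO : IsOpen O) (hf : ContDiffOn ℝ ∞ f O)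
    (i : Fin n) : ContDiffOn ℝ ∞ (pd i f) O :=
  (hf.fderiv_of_isOpen hO (by simp)).clm_apply contDiffOn_const

theorem Lv_comp_aff {s : MF n} {w : V n → ℝ} (hw : ContDiffOn ℝ ∞ w (Bn n)) {p x : V n} {r : ℝ}
    (hx : p + r • x ∈ Bn n) :
    Lv (fun x => s (p + r • x)) (fun x => w (p + r • x)) x = r ^ 2 * Lv s w (p + r • x) := by
  unfold Lv
  rw [Finset.mul_sum]
  refine Finset.sum_congr rfl fun i _ => ?_
  rw [Finset.mul_sum]
  refine Finset.sum_congr rfl fun j _ => ?_
  have hO : IsOpen {x : V n | p + r • x ∈ Bn n} := isOpen_Bn.preimage (by fun_prop)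
  have h1 : pd j (fun x => w (p + r • x)) =ᶠ[𝓝 x] fun x => r * pd j w (p + r • x) := by
    filter_upwards [hO.mem_nhds hx] with y hy
    exact pd_comp_aff ((hw.contDiffAt (isOpen_Bn.mem_nhds hy)).differentiableAt (by simp)) j
  have h2 : DifferentiableAt ℝ (pd j w) (p + r • x) :=
    ((contDiffOn_pd isOpen_Bn hw j).contDiffAt (isOpen_Bn.mem_nhds hx)).differentiableAt (by simp)
  have h3 : pd i (pd j (fun x => w (p + r • x))) x = r * (r * pd i (pd j w) (p + r • x)) := by
    have h4 : pd i (pd j (fun x => w (p + r • x))) x =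
        pd i (fun x => r * pd j w (p + r • x)) x := by
      unfold pd at h1 ⊢
      rw [h1.fderiv_eq]
    rw [h4]
    have h5 := pd_comp_aff (f := fun y => r * pd j w y) (h2.const_mul r) (p := p) (x := x) i
    rw [h5]
    congr 1
    show fderiv ℝ (fun y => r * pd j w y) (p + r • x) (Pi.single i 1) = _
    rw [fderiv_const_mul h2]
    rfl
  rw [h3]; ring

theorem iter_comp_aff {f : V n → ℝ} (hf : ContDiff ℝ ∞ f) {p x : V n} {r : ℝ} (hr0 : 0 ≤ r)
    (hr : r ≤ 1) (l : ℕ) :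
    ‖iteratedFDeriv ℝ l (fun x => f (p + r • x)) x‖ ≤ ‖iteratedFDeriv ℝ l f (p + r • x)‖ := by
  have h1 : (fun x => f (p + r • x)) =
      (fun y => f (p + y)) ∘ (r • ContinuousLinearMap.id ℝ (V n)) := by
    funext x; simp
  have h2 : ContDiff ℝ ∞ fun y => f (p + y) := hf.comp (contDiff_const.add contDiff_id)
  rw [h1, ContinuousLinearMap.iteratedFDeriv_comp_right _ h2 x (by exact_mod_cast le_top)]
  refine (ContinuousMultilinearMap.norm_compContinuousLinearMap_le _ _).trans ?_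
  have h3 : iteratedFDeriv ℝ l (fun y => f (p + y)) ((r • ContinuousLinearMap.id ℝ (V n)) x) =
      iteratedFDeriv ℝ l f (p + r • x) := by
    rw [iteratedFDeriv_comp_add_left]
    simp
  rw [h3]
  have h4 : ‖r • ContinuousLinearMap.id ℝ (V n)‖ ≤ 1 := by
    rw [norm_smul, Real.norm_of_nonneg hr0]
    exact mul_le_one₀ hr (norm_nonneg _) ContinuousLinearMap.norm_id_le
  calc _ ≤ ‖iteratedFDeriv ℝ l f (p + r • x)‖ * 1 := by
        refine mul_le_mul_of_nonneg_left ?_ (norm_nonneg _)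
        rw [Finset.prod_const]
        exact pow_le_one₀ (norm_nonneg _) h4
    _ = _ := mul_one _

theorem integral_aff (f : V n → ℝ) (p : V n) {r : ℝ} (hr : 0 < r) :
    ∫ x in Metric.ball (0 : V n) 2, f (p + r • x) =
      (r ^ n)⁻¹ * ∫ x in Metric.ball p (2 * r), f x := by
  rw [Measure.setIntegral_comp_smul_of_pos volume (fun x => f (p + x)) _ hr]
  rw [smul_ball hr.ne', smul_zero, Real.norm_of_nonneg hr.le, smul_eq_mul]
  congr 1
  · simp
  · have h1 : (fun x => p + x) ⁻¹' (Metric.ball p (2 * r)) = Metric.ball (0 : V n) (r * 2) := by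
      ext x
      simp [mul_comm]
    rw [← h1]
    exact (measurePreserving_add_left volume p).setIntegral_preimage_emb
      (measurableEmbedding_addLeft p) f _

theorem sqrt_mul_le {a b c : ℝ} (ha : 0 ≤ a) (hbc : b ≤ c) : √(a * b) ≤ √a * √c := by
  rw [← Real.sqrt_mul ha]
  exact Real.sqrt_le_sqrt (mul_le_mul_of_nonneg_left hbc ha)

/-- The interior estimate. -/
theorem int_est (hI : RowINV) (n : ℕ) : ∃ (K : ℕ) (C ε : ℝ), 0 < C ∧ 0 < ε ∧
    ∀ s : MF n, TS n K ε s → ∀ w : V n → ℝ, ContDiffOn ℝ ∞ w (Bn n) →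
      (∀ x ∈ Bn n, Lv s w x = 0) → ∀ p ∈ Bs n (1 / 2), ∀ i,
        |pd i w p| ≤ C * √(∫ x in Bc n, w x ^ 2) := by
  obtain ⟨K, C, ε, hC, hε, h⟩ := hI n 1
  refine ⟨K, C * √((r0 n ^ n)⁻¹) * (r0 n)⁻¹, ε, ?_, hε, ?_⟩
  · have := r0_pos (n := n)
    positivity
  intro s hs w hw hL p hp i
  have hr := r0_pos (n := n)
  have hmap : ∀ x ∈ Metric.ball (0 : V n) 2, p + r0 n • x ∈ Metric.ball p (2 * r0 n) := by
    intro x hx
    rw [mem_ball_zero_iff] at hx
    rw [Metric.mem_ball, dist_eq_norm, add_sub_cancel_left, norm_smul,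
      Real.norm_of_nonneg hr.le]
    nlinarith
  have hmapB : ∀ x ∈ Metric.ball (0 : V n) 2, p + r0 n • x ∈ Bn n := fun x hx =>
    Bc_subset (ball_sub hp (hmap x hx))
  have haff : ContDiff ℝ ∞ fun x : V n => p + r0 n • x :=
    contDiff_const.add (contDiff_id.const_smul (r0 n))
  have hw' : ContDiffOn ℝ ∞ (fun x => w (p + r0 n • x)) (Metric.ball 0 2) :=
    hw.comp haff.contDiffOn hmapB
  have hwc : ContinuousOn (fun x => w x ^ 2) (Bc n) :=
    (hw.continuousOn.mono Bc_subset).pow 2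
  have hwi : IntegrableOn (fun x => w x ^ 2) (Bc n) := hwc.integrableOn_compact isCompact_Bc
  have hint : IntegrableOn (fun x => w (p + r0 n • x) ^ 2) (Metric.ball 0 2) := by
    obtain ⟨B, hB⟩ := isCompact_Bc.exists_bound_of_continuousOn hwc
    have hfin : IsFiniteMeasure (volume.restrict (Metric.ball (0 : V n) 2)) :=
      ⟨by rw [Measure.restrict_apply_univ]; exact measure_ball_lt_top⟩
    refine Integrable.of_bound ((hw'.continuousOn.pow 2).aestronglyMeasurable measurableSet_ball)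
      B ?_
    refine (ae_restrict_iff' measurableSet_ball).2 (Filter.Eventually.of_forall fun x hx => ?_)
    exact hB _ (ball_sub hp (hmap x hx))
  have key := h (fun x => s (p + r0 n • x)) ?_ ?_ (fun x => w (p + r0 n • x)) (fun _ => 0) hw'
    contDiffOn_const ?_ hint 0 ?_ 1 le_rfl
  rotate_left
  · intro i j
    exact ((hs.sm i j).comp haff).contDiffOn
  · intro i j l hl x _
    have h1 : ContDiff ℝ ∞ fun x => s x i j - (1 : Matrix (Fin n) (Fin n) ℝ) i j :=
      (hs.sm i j).sub contDiff_const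
    exact (iter_comp_aff h1 hr.le r0_le l).trans (hs.cl i j l hl _)
  · intro x hx
    rw [Lv_comp_aff hw (hmapB x hx), hL _ (hmapB x hx), mul_zero]
  · intro l _ x _
    have : iteratedFDeriv ℝ l (fun _ : V n => (0 : ℝ)) x = 0 := by
      rw [iteratedFDeriv_fun_zero]; rfl
    rw [this, norm_zero]
  rw [norm_iteratedFDeriv_one, add_zero, integral_aff (fun x => w x ^ 2) p hr] at key
  have h2 : |r0 n * pd i w p| ≤ ‖fderiv ℝ (fun x => w (p + r0 n • x)) 0‖ := by
    have h3 : DifferentiableAt ℝ w (p + r0 n • (0 : V n)) :=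
      (hw.contDiffAt (isOpen_Bn.mem_nhds (hmapB 0 (by simp)))).differentiableAt (by simp)
    have h4 := pd_comp_aff h3 i
    rw [smul_zero, add_zero] at h4
    rw [← h4]
    unfold pd
    have h5 := (fderiv ℝ (fun x => w (p + r0 n • x)) 0).le_opNorm (Pi.single i 1)
    have h6 : ‖(Pi.single i 1 : V n)‖ ≤ 1 := by
      rw [Pi.norm_single]; simp
    rw [← Real.norm_eq_abs]
    exact h5.trans (mul_le_of_le_one_right (norm_nonneg _) h6)
  have h7 : √((r0 n ^ n)⁻¹ * ∫ x in Metric.ball p (2 * r0 n), w x ^ 2) ≤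
      √((r0 n ^ n)⁻¹) * √(∫ x in Bc n, w x ^ 2) := by
    refine sqrt_mul_le (by positivity) ?_
    exact setIntegral_mono_set hwi (Filter.Eventually.of_forall fun x => sq_nonneg _)
      (ball_sub hp).eventuallyLE
  rw [abs_mul, abs_of_pos hr] at h2
  have h8 : r0 n * |pd i w p| ≤ C * (√((r0 n ^ n)⁻¹) * √(∫ x in Bc n, w x ^ 2)) :=
    h2.trans (key.trans (mul_le_mul_of_nonneg_left h7 hC.le))
  calc |pd i w p| = (r0 n)⁻¹ * (r0 n * |pd i w p|) := by field_simp
    _ ≤ (r0 n)⁻¹ * (C * (√((r0 n ^ n)⁻¹) * √(∫ x in Bc n, w x ^ 2))) :=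
        mul_le_mul_of_nonneg_left h8 (inv_nonneg.2 hr.le)
    _ = _ := by ring

end Vale.Agent.P088.HY
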