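import Mathlib

/-!
# Orthogonal projection in `L²` onto the span of finitely many functions, in coordinates
-/

open MeasureTheory Set
open scoped RealInnerProductSpace

namespace Vale.Agent.P088.R2.H948

theorem abs_proj {H ι : Type*} [NormedAddCommGroup H] [InnerProductSpace ℝ H] [Fintype ι]
    (v : ι → H) : ∃ (d : ℕ) (c : Fin d → ι → ℝ), ∀ f : H, ∀ m,
      ‖f - ∑ a, ⟪∑ l, c a l • v l, f⟫ • ∑ l, c a l • v l‖ ≤ ‖f - v m‖ := by
  set E := Submodule.span ℝ (Set.range v) with hE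
  have : FiniteDimensional ℝ E := FiniteDimensional.span_of_finite ℝ (Set.finite_range v)
  let b := stdOrthonormalBasis ℝ E
  have h : ∀ a, ∃ c : ι → ℝ, ∑ l, c l • v l = (b a : H) := fun a =>
    (Submodule.mem_span_range_iff_exists_fun ℝ).1 (b a).2
  choose c hc using h
  refine ⟨_, c, fun f m => ?_⟩
  simp only [hc]
  have h1 : ∑ a, ⟪(b a : H), f⟫ • (b a : H) = E.starProjection f := by
    rw [Submodule.starProjection_apply, b.orthogonalProjectionOnto_apply_eq_sum]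
    simp
  rw [h1, E.starProjection_minimal]
  have hm : v m ∈ E := Submodule.subset_span ⟨m, rfl⟩
  exact ciInf_le ⟨0, by rintro _ ⟨x, rfl⟩; exact norm_nonneg _⟩ (⟨v m, hm⟩ : E)

theorem inner_toLp {X : Type*} [MeasurableSpace X] {μ : Measure X} {f g : X → ℝ}
    (hf : MemLp f 2 μ) (hg : MemLp g 2 μ) : ⟪hf.toLp f, hg.toLp g⟫ = ∫ x, f x * g x ∂μ := by
  rw [L2.inner_def]
  refine integral_congr_ae ?_
  filter_upwards [hf.coeFn_toLp, hg.coeFn_toLp] with x h1 h2
  rw [h1, h2]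
  simp [mul_comm]

theorem norm_sq_toLp {X : Type*} [MeasurableSpace X] {μ : Measure X} {f : X → ℝ}
    (hf : MemLp f 2 μ) : ‖hf.toLp f‖ ^ 2 = ∫ x, f x ^ 2 ∂μ := by
  rw [← real_inner_self_eq_norm_sq, inner_toLp]
  simp only [sq]

theorem toLp_sum {X I : Type*} [MeasurableSpace X] {μ : Measure X} (s : Finset I) (c : I → ℝ)
    (v : I → X → ℝ) (hv : ∀ l, MemLp (v l) 2 μ)
    (h : MemLp (fun x => ∑ l ∈ s, c l * v l x) 2 μ) :
    ∑ l ∈ s, c l • (hv l).toLp (v l) = h.toLp _ := by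
  classical
  induction s using Finset.induction_on with
  | empty =>
    rw [Finset.sum_empty]
    refine Lp.ext ?_
    refine Filter.EventuallyEq.trans ?_ (MemLp.coeFn_toLp _).symm
    refine (Lp.coeFn_zero _ _ _).trans ?_
    refine Filter.Eventually.of_forall fun x => ?_
    simp
  | insert a s ha ih =>
    have h2 : MemLp (fun x => ∑ l ∈ s, c l * v l x) 2 μ :=
      memLp_finsetSum _ fun l _ => (hv l).const_mul (c l)
    rw [Finset.sum_insert ha, ih h2, ← MemLp.toLp_const_smul, ← MemLp.toLp_add]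
    refine (MemLp.toLp_eq_toLp_iff _ _).2 (Filter.Eventually.of_forall fun x => ?_)
    simp only [Finset.sum_insert ha, Pi.add_apply, Pi.smul_apply, smul_eq_mul]

/-- Projection onto the span of `v 0, …, v (N-1)` in `L²(μ)`. -/
theorem proj_fun {X ι : Type*} [MeasurableSpace X] [Fintype ι] (μ : Measure X) (v : ι → X → ℝ)
    (hv : ∀ l, MemLp (v l) 2 μ) :
    ∃ (d : ℕ) (c : Fin d → ι → ℝ), ∀ f : X → ℝ, MemLp f 2 μ → ∀ m,
      ∫ x, (f x - ∑ a, (∫ y, (∑ l, c a l * v l y) * f y ∂μ) * ∑ l, c a l * v l x) ^ 2 ∂μ ≤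
        ∫ x, (f x - v m x) ^ 2 ∂μ := by
  obtain ⟨d, c, hc⟩ := abs_proj (fun l => (hv l).toLp (v l))
  refine ⟨d, c, fun f hf m => ?_⟩
  have he : ∀ a, MemLp (fun x => ∑ l, c a l * v l x) 2 μ := fun a =>
    memLp_finsetSum _ fun l _ => (hv l).const_mul (c a l)
  have he' : ∀ a, ∑ l, c a l • (hv l).toLp (v l) = (he a).toLp _ := fun a =>
    toLp_sum _ (c a) v hv (he a)
  have h3 := hc (hf.toLp f) m
  simp only [he', inner_toLp] at h3
  have hg : MemLp (fun x => ∑ a, (∫ y, (∑ l, c a l * v l y) * f y ∂μ) * ∑ l, c a l * v l x) 2 μ :=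
    memLp_finsetSum _ fun a _ => (he a).const_mul _
  have h4 : ∑ a, (∫ y, (∑ l, c a l * v l y) * f y ∂μ) • (he a).toLp _ = hg.toLp _ :=
    toLp_sum _ _ (fun a x => ∑ l, c a l * v l x) he hg
  rw [h4, ← MemLp.toLp_sub, ← MemLp.toLp_sub] at h3
  have h5 := pow_le_pow_left₀ (norm_nonneg _) h3 2
  rw [norm_sq_toLp, norm_sq_toLp] at h5
  exact h5

end Vale.Agent.P088.R2.H948
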